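import Vale.Agent.P034.Frag

namespace Vale.Agent.P034

open Finset

variable {X : Type} [Fintype X] [DecidableEq X]

/-- the admissible nonempty fragments for `d` -/
noncomputable def admSet (F : Set (Finset X)) (lam : Finset X → X → ℝ) (s : ℕ) (d : X → ℕ) :
    Finset (Finset X) := by
  classical exact univ.filter (fun T => T.Nonempty ∧ (∀ x ∈ T, d x < s) ∧ Adm F lam d T)

lemma mem_admSet {F : Set (Finset X)} {lam : Finset X → X → ℝ} {s : ℕ} {d : X → ℕ}
    {T : Finset X} :
    T ∈ admSet F lam s d ↔ T.Nonempty ∧ (∀ x ∈ T, d x < s) ∧ Adm F lam d T := by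
  classical
  unfold admSet; simp

def prof (s : ℕ) (d : X → ℕ) (T : Finset X) : Fin s → ℕ :=
  fun j => (T.filter (fun x => d x = j)).card

omit [Fintype X] [DecidableEq X] in
lemma prod_prof (s : ℕ) (d : X → ℕ) (T : Finset X) (hT : ∀ x ∈ T, d x < s) (c : ℕ → ℝ) :
    ∏ x ∈ T, c (d x) = ∏ j : Fin s, c j ^ prof s d T j := by
  rw [← prod_fiberwise_of_maps_to (s := T) (t := range s) (g := d)
    (fun x hx => mem_range.2 (hT x hx))]
  rw [Finset.prod_range]
  apply prod_congr rfl
  intro j _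
  unfold prof
  rw [← prod_const]
  apply prod_congr rfl
  intro x hx
  rw [(mem_filter.1 hx).2]

omit [Fintype X] [DecidableEq X] in
lemma tau_prof (s : ℕ) (d : X → ℕ) (T T' : Finset X) (hT : ∀ x ∈ T, d x < s)
    (hT' : ∀ x ∈ T', d x < s) (h : prof s d T = prof s d T') : tau T d = tau T' d := by
  funext j
  have key : ∀ U : Finset X, (∀ x ∈ U, d x < s) →
      tau U d j = ∑ i : Fin s, if (i : ℕ) ≤ j then prof s d U i else 0 := by
    intro U hU
    unfold tau prof
    rw [card_eq_sum_card_fiberwise (f := d) (t := range s)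
      (fun x hx => by
        have := hU x (mem_filter.1 hx).1
        simpa using this)]
    rw [Finset.sum_range]
    apply sum_congr rfl
    intro i _
    split_ifs with hi
    · congr 1
      ext x
      simp only [mem_filter]
      constructor
      · rintro ⟨⟨h1, _⟩, h3⟩; exact ⟨h1, h3⟩
      · rintro ⟨h1, h3⟩; exact ⟨⟨h1, by omega⟩, h3⟩
    · rw [card_eq_zero, filter_eq_empty_iff]
      intro x hx
      have := (mem_filter.1 hx).2
      omega
  rw [key T hT, key T' hT', h]

noncomputable def yy (j : ℕ) : ℝ := eps j * (1 / 2) ^ j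

lemma yy_pos (j : ℕ) : 0 < yy j := by unfold yy; have := eps_pos j; positivity

lemma sum_half_le (s : ℕ) : ∑ j ∈ range s, (1 / 2 : ℝ) ^ j ≤ 2 := by
  have : ∀ s, ∑ j ∈ range s, (1 / 2 : ℝ) ^ j = 2 - 2 * (1 / 2 : ℝ) ^ s := by
    intro s
    induction s with
    | zero => simp
    | succ s ih => rw [sum_range_succ, ih]; ring
  rw [this]
  have : (0 : ℝ) ≤ 2 * (1 / 2 : ℝ) ^ s := by positivity
  linarith

omit [Fintype X] in
lemma container_bound (lam : Finset X → X → ℝ) (s : ℕ) (d : X → ℕ) (H : Finset X) (τ : ℕ → ℕ)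
    (m : ℕ) (hτ : ∀ j, τ j ≤ m) :
    ∑ x ∈ H.filter (fun x => d x < s ∧ eps (d x) * (pre lam H x).card < τ (d x)), yy (d x)
      ≤ 2 * m := by
  classical
  set R := H.filter (fun x => d x < s ∧ eps (d x) * (pre lam H x).card < τ (d x)) with hR
  rw [← sum_fiberwise_of_maps_to (s := R) (t := range s) (g := d)
    (fun x hx => mem_range.2 (mem_filter.1 hx).2.1)]
  have h1 : ∀ j ∈ range s, ∑ x ∈ R.filter (fun x => d x = j), yy (d x) ≤ (1 / 2) ^ j * m := by
    intro j _
    have e : ∑ x ∈ R.filter (fun x => d x = j), yy (d x) =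
        (R.filter (fun x => d x = j)).card * yy j := by
      rw [sum_congr rfl (g := fun _ => yy j) (fun x hx => by rw [(mem_filter.1 hx).2])]
      simp
    rw [e]
    have hb : eps j * (R.filter (fun x => d x = j)).card ≤ m := by
      rcases (R.filter (fun x => d x = j)).eq_empty_or_nonempty with h | h
      · rw [h]; simp
      · obtain ⟨x0, hx0, hmin⟩ := exists_min_image _ (lam H) h
        have hsub : R.filter (fun x => d x = j) ⊆ pre lam H x0 := by
          intro y hy
          rw [mem_pre]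
          exact ⟨(mem_filter.1 (mem_filter.1 hy).1).1, hmin y hy⟩
        have hc : ((R.filter (fun x => d x = j)).card : ℝ) ≤ (pre lam H x0).card := by
          exact_mod_cast card_le_card hsub
        have h2 := (mem_filter.1 (mem_filter.1 hx0).1).2.2
        rw [(mem_filter.1 hx0).2] at h2
        have h3 : (τ j : ℝ) ≤ m := by exact_mod_cast hτ j
        have := mul_le_mul_of_nonneg_left hc (eps_pos j).le
        linarith
    unfold yy
    have : (0 : ℝ) ≤ (1 / 2) ^ j := by positivity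
    nlinarith
  refine (sum_le_sum h1).trans ?_
  rw [← sum_mul]
  have := sum_half_le s
  have h0 : (0 : ℝ) ≤ m := Nat.cast_nonneg _
  nlinarith

noncomputable def aa (j : ℕ) : ℝ := (1 / 16) * (1 / 2) ^ j

lemma exp_two_le : Real.exp 2 ≤ 8 := by
  have h := Real.exp_one_lt_d9
  have : Real.exp 2 = Real.exp 1 * Real.exp 1 := by rw [← Real.exp_add]; norm_num
  rw [this]
  have h0 := Real.exp_pos 1
  nlinarith

lemma fiber_bound (F : Set (Finset X)) (lam : Finset X → X → ℝ) (s : ℕ) (d : X → ℕ)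
    (t : Fin s → ℕ) :
    ∑ T ∈ (admSet F lam s d).filter (fun T => prof s d T = t), ∏ x ∈ T, (512 * 8 ^ (d x) : ℝ)⁻¹
      ≤ ∏ j : Fin s, aa j ^ t j := by
  classical
  have haa : ∀ j, 0 ≤ aa j := fun j => by unfold aa; positivity
  rcases ((admSet F lam s d).filter (fun T => prof s d T = t)).eq_empty_or_nonempty with h | h
  · rw [h, sum_empty]
    exact prod_nonneg fun j _ => pow_nonneg (haa j) _
  obtain ⟨T0, hT0⟩ := h
  rw [mem_filter, mem_admSet] at hT0
  obtain ⟨⟨_, hT0s, ⟨H, hH, hF⟩, _⟩, hT0t⟩ := hT0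
  set R := H.filter (fun x => d x < s ∧ eps (d x) * (pre lam H x).card < tau T0 d (d x)) with hR
  have hRb : ∑ x ∈ R, yy (d x) ≤ 2 * T0.card :=
    container_bound lam s d H (tau T0 d) T0.card (fun j => card_filter_le _ _)
  let c : ℕ → ℝ := fun j => (yy j * (512 * 8 ^ j))⁻¹
  have hc : ∀ j, 0 ≤ c j := fun j => by have := yy_pos j; positivity
  have hw : ∀ T ∈ (admSet F lam s d).filter (fun T => prof s d T = t),
      ∏ x ∈ T, (512 * 8 ^ (d x) : ℝ)⁻¹ = (∏ x ∈ T, yy (d x)) * ∏ j : Fin s, c j ^ t j := by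
    intro T hT
    rw [mem_filter, mem_admSet] at hT
    rw [← hT.2, ← prod_prof s d T hT.1.2.1 c, ← prod_mul_distrib]
    apply prod_congr rfl
    intro x _
    have := yy_pos (d x)
    simp only [c]
    field_simp
  have hsub : (admSet F lam s d).filter (fun T => prof s d T = t) ⊆ R.powerset := by
    intro T hT
    rw [mem_filter, mem_admSet] at hT
    obtain ⟨⟨_, hTs, _, hall⟩, hTt⟩ := hT
    have htau : tau T d = tau T0 d := tau_prof s d T T0 hTs hT0s (hTt.trans hT0t.symm)
    rw [mem_powerset]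
    intro x hx
    have := hall H hH (htau ▸ hF) x hx
    rw [hR, mem_filter]
    exact ⟨this.1, hTs x hx, htau ▸ this.2⟩
  rw [sum_congr rfl hw, ← sum_mul]
  have h1 : ∑ T ∈ (admSet F lam s d).filter (fun T => prof s d T = t), ∏ x ∈ T, yy (d x) ≤
      ∑ T ∈ R.powerset, ∏ x ∈ T, yy (d x) :=
    sum_le_sum_of_subset_of_nonneg hsub fun T _ _ => prod_nonneg fun x _ => (yy_pos _).le
  rw [← prod_one_add] at h1
  have h2 : ∏ x ∈ R, (1 + yy (d x)) ≤ Real.exp (∑ x ∈ R, yy (d x)) := by
    rw [Real.exp_sum]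
    apply prod_le_prod
    · intro x _; have := yy_pos (d x); positivity
    · intro x _; rw [add_comm]; exact Real.add_one_le_exp _
  have h3 : Real.exp (∑ x ∈ R, yy (d x)) ≤ ∏ j : Fin s, (8 : ℝ) ^ t j := by
    have e : ∏ j : Fin s, (8 : ℝ) ^ t j = ∏ x ∈ T0, (8 : ℝ) := by
      rw [← hT0t, ← prod_prof s d T0 hT0s (fun _ => 8)]
    rw [e, prod_const]
    calc Real.exp (∑ x ∈ R, yy (d x)) ≤ Real.exp (T0.card * 2) := by
          apply Real.exp_le_exp.2; linarith
      _ = Real.exp 2 ^ T0.card := by rw [Real.exp_nat_mul]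
      _ ≤ 8 ^ T0.card := pow_le_pow_left₀ (Real.exp_pos _).le exp_two_le _
  have h4 : 0 ≤ ∏ j : Fin s, c j ^ t j := prod_nonneg fun j _ => pow_nonneg (hc j) _
  calc _ ≤ (∏ j : Fin s, (8 : ℝ) ^ t j) * ∏ j : Fin s, c j ^ t j :=
        mul_le_mul_of_nonneg_right (h1.trans (h2.trans h3)) h4
    _ = ∏ j : Fin s, aa j ^ t j := by
        rw [← prod_mul_distrib]
        apply prod_congr rfl
        intro j _
        rw [← mul_pow]
        congr 1
        simp only [c, yy, eps, aa]
        have e8 : (8 : ℝ) ^ (j : ℕ) = 2 ^ (j : ℕ) * 2 ^ (j : ℕ) * 2 ^ (j : ℕ) := by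
          rw [← mul_pow, ← mul_pow]; norm_num
        rw [e8]
        simp only [one_div, inv_pow]
        field_simp
        norm_num

lemma geom_le (a : ℝ) (h0 : 0 ≤ a) (h1 : a ≤ 1 / 2) (n : ℕ) :
    ∑ k ∈ range (n + 1), a ^ k ≤ 1 + 2 * a := by
  have : ∀ n, ∑ k ∈ range (n + 1), a ^ k ≤ 1 + 2 * a - 2 * a ^ (n + 1) := by
    intro n
    induction n with
    | zero => simp
    | succ n ih =>
      rw [sum_range_succ]
      have : a ^ (n + 1 + 1) = a ^ (n + 1) * a := by ring
      have h2 : 0 ≤ a ^ (n + 1) := by positivity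
      nlinarith
  have h2 : 0 ≤ a ^ (n + 1) := by positivity
  linarith [this n]

lemma adm_cost (F : Set (Finset X)) (lam : Finset X → X → ℝ) (s : ℕ) (d : X → ℕ) :
    ∑ T ∈ admSet F lam s d, ∏ x ∈ T, (512 * 8 ^ (d x) : ℝ)⁻¹ ≤ 1 / 3 := by
  classical
  set n := Fintype.card X
  let P : Finset (Fin s → ℕ) := Fintype.piFinset (fun _ => range (n + 1))
  have hmaps : ∀ T ∈ admSet F lam s d, prof s d T ∈ P.erase 0 := by
    intro T hT
    rw [mem_admSet] at hT
    rw [mem_erase]
    constructor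
    · intro h
      obtain ⟨x, hx⟩ := hT.1
      have := congrFun h ⟨d x, hT.2.1 x hx⟩
      simp only [prof, Pi.zero_apply, card_eq_zero, filter_eq_empty_iff] at this
      exact this hx rfl
    · simp only [P, Fintype.mem_piFinset, mem_range]
      intro j
      have : prof s d T j ≤ n := card_le_univ _
      omega
  rw [← sum_fiberwise_of_maps_to hmaps]
  refine (sum_le_sum fun t _ => fiber_bound F lam s d t).trans ?_
  have h0 : (0 : Fin s → ℕ) ∈ P := by simp [P]
  have h1 := add_sum_erase P (fun t => ∏ j : Fin s, aa j ^ t j) h0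
  simp only [Pi.zero_apply, pow_zero, prod_const_one] at h1
  have h2 : ∑ t ∈ P, ∏ j : Fin s, aa j ^ t j = ∏ j : Fin s, ∑ k ∈ range (n + 1), aa j ^ k := by
    rw [prod_univ_sum]
  have haa : ∀ j, 0 ≤ aa j := fun j => by unfold aa; positivity
  have haa' : ∀ j, aa j ≤ 1 / 2 := fun j => by
    unfold aa
    have : (1 / 2 : ℝ) ^ j ≤ 1 := pow_le_one₀ (by norm_num) (by norm_num)
    linarith
  have h3 : ∏ j : Fin s, ∑ k ∈ range (n + 1), aa j ^ k ≤ Real.exp (∑ j : Fin s, 2 * aa j) := by
    rw [Real.exp_sum]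
    apply prod_le_prod
    · intro j _; exact sum_nonneg fun k _ => pow_nonneg (haa j) _
    · intro j _
      refine (geom_le _ (haa j) (haa' j) n).trans ?_
      rw [add_comm]; exact Real.add_one_le_exp _
  have h4 : ∑ j : Fin s, 2 * aa j ≤ 1 / 4 := by
    rw [← Finset.sum_range (fun j => 2 * aa j)]
    have := sum_half_le s
    have e : ∑ j ∈ range s, 2 * aa j = (1 / 8) * ∑ j ∈ range s, (1 / 2 : ℝ) ^ j := by
      rw [mul_sum]; apply sum_congr rfl; intro j _; unfold aa; ring
    rw [e]; linarith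
  have h5 : Real.exp (1 / 4) ≤ 4 / 3 := by
    have := Real.exp_bound_div_one_sub_of_interval (x := 1 / 4) (by norm_num) (by norm_num)
    norm_num at this ⊢
    exact this
  have h6 := Real.exp_le_exp.2 h4
  linarith

end Vale.Agent.P034
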