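import Mathlib

namespace Vale.Agent.P034

open Finset

variable {X : Type} [Fintype X] [DecidableEq X]

/-- threshold set of `H` at `x` -/
noncomputable def pre (lam : Finset X → X → ℝ) (H : Finset X) (x : X) : Finset X := by
  classical exact H.filter (fun y => lam H x ≤ lam H y)

noncomputable def eps (j : ℕ) : ℝ := (1 / 4) * (1 / 2) ^ j

lemma eps_pos (j : ℕ) : 0 < eps j := by unfold eps; positivity

def Feas (lam : Finset X → X → ℝ) (d : X → ℕ) (τ : ℕ → ℕ) (H : Finset X) : Prop :=
  ∀ j, ∀ x ∈ H, (∀ y ∈ pre lam H x, d y ≤ j) ∨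
    (((pre lam H x).filter (fun y => j < d y)).card : ℝ) + τ j ≤ eps j * (pre lam H x).card

def tau (T : Finset X) (d : X → ℕ) (j : ℕ) : ℕ := (T.filter (fun x => d x ≤ j)).card

def Adm (F : Set (Finset X)) (lam : Finset X → X → ℝ) (d : X → ℕ) (T : Finset X) : Prop :=
  (∃ H ∈ F, Feas lam d (tau T d) H) ∧
    ∀ H ∈ F, Feas lam d (tau T d) H → ∀ x ∈ T,
      x ∈ H ∧ eps (d x) * (pre lam H x).card < tau T d (d x)

omit [Fintype X] [DecidableEq X] in
lemma mem_pre {lam : Finset X → X → ℝ} {H : Finset X} {x y : X} :
    y ∈ pre lam H x ↔ y ∈ H ∧ lam H x ≤ lam H y := by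
  classical
  unfold pre
  simp

omit [Fintype X] [DecidableEq X] in
lemma pre_mono {lam : Finset X → X → ℝ} {H : Finset X} {x y : X} (h : x ∈ pre lam H y) :
    pre lam H x ⊆ pre lam H y := by
  intro z hz
  rw [mem_pre] at *
  exact ⟨hz.1, h.2.trans hz.2⟩

/-- the lowered set -/
def low (d d' : X → ℕ) : Finset X := univ.filter (fun x => d' x < d x)

omit [DecidableEq X] in
lemma mem_low {d d' : X → ℕ} {x : X} : x ∈ low d d' ↔ d' x < d x := by
  unfold low; simp

lemma raise_feas (lam : Finset X → X → ℝ) (d d' : X → ℕ) (H : Finset X) (x : X)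
    (hx : x ∈ low d d') (hF : Feas lam d' (tau (low d d') d') H)
    (hbad : x ∈ H → (tau (low d d') d' (d' x) : ℝ) ≤ eps (d' x) * (pre lam H x).card) :
    Feas lam (Function.update d' x (d' x + 1))
      (tau (low d (Function.update d' x (d' x + 1))) (Function.update d' x (d' x + 1))) H := by
  set d'' := Function.update d' x (d' x + 1) with hd''
  have hxx : d'' x = d' x + 1 := by simp [hd'']
  have hne : ∀ y, y ≠ x → d'' y = d' y := by
    intro y hy; simp [hd'', Function.update_of_ne hy]
  have hsub : ∀ j, (low d d'').filter (fun z => d'' z ≤ j) ⊆ (low d d').filter (fun z => d' z ≤ j) := by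
    intro j z hz
    simp only [mem_filter, mem_low] at hz ⊢
    by_cases hzx : z = x
    · subst hzx; rw [hxx] at hz; omega
    · rw [hne z hzx] at hz; exact hz
  have htau_le : ∀ j, tau (low d d'') d'' j ≤ tau (low d d') d' j := fun j => card_le_card (hsub j)
  have htau_lt : tau (low d d'') d'' (d' x) + 1 ≤ tau (low d d') d' (d' x) := by
    apply card_lt_card
    refine ⟨hsub _, fun h => ?_⟩
    have : x ∈ (low d d').filter (fun z => d' z ≤ d' x) := by
      simp only [mem_filter]; exact ⟨hx, le_rfl⟩
    have h2 := h this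
    simp only [mem_filter] at h2
    omega
  intro j y hy
  by_cases hcase : j = d' x ∧ x ∈ pre lam H y
  · obtain ⟨hj, hxp⟩ := hcase
    right
    have hxH : x ∈ H := (mem_pre.1 hxp).1
    have h1 : (tau (low d d') d' (d' x) : ℝ) ≤ eps (d' x) * (pre lam H y).card := by
      refine (hbad hxH).trans ?_
      have : ((pre lam H x).card : ℝ) ≤ (pre lam H y).card := by
        exact_mod_cast card_le_card (pre_mono hxp)
      exact mul_le_mul_of_nonneg_left this (eps_pos _).le
    have hc : ((pre lam H y).filter (fun z => j < d'' z)).card ≤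
        ((pre lam H y).filter (fun z => j < d' z)).card + 1 := by
      have : (pre lam H y).filter (fun z => j < d'' z) ⊆
          insert x ((pre lam H y).filter (fun z => j < d' z)) := by
        intro z hz
        simp only [mem_filter, mem_insert] at hz ⊢
        by_cases hzx : z = x
        · exact Or.inl hzx
        · right; rw [hne z hzx] at hz; exact hz
      exact (card_le_card this).trans (card_insert_le _ _)
    have hc' : (((pre lam H y).filter (fun z => j < d'' z)).card : ℝ) ≤
        ((pre lam H y).filter (fun z => j < d' z)).card + 1 := by exact_mod_cast hc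
    have ht' : (tau (low d d'') d'' j : ℝ) + 1 ≤ tau (low d d') d' j := by
      rw [hj]; exact_mod_cast htau_lt
    rcases hF j y hy with h | h
    · have h0 : ((pre lam H y).filter (fun z => j < d' z)).card = 0 := by
        rw [card_eq_zero, filter_eq_empty_iff]
        intro z hz; exact not_lt.2 (h z hz)
      rw [h0] at hc'
      rw [← hj] at h1
      push_cast at hc'
      linarith
    · linarith
  · have heq : ∀ z ∈ pre lam H y, (j < d'' z ↔ j < d' z) := by
      intro z hz
      by_cases hzx : z = x
      · subst hzx
        have : j ≠ d' z := fun h => hcase ⟨h, hz⟩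
        rw [hxx]; omega
      · rw [hne z hzx]
    rcases hF j y hy with h | h
    · left
      intro z hz
      have := heq z hz
      have h3 := h z hz
      omega
    · right
      have : (pre lam H y).filter (fun z => j < d'' z) = (pre lam H y).filter (fun z => j < d' z) :=
        filter_congr heq
      rw [this]
      have ht : (tau (low d d'') d'' j : ℝ) ≤ tau (low d d') d' j := by exact_mod_cast htau_le j
      linarith

/-- existence of the maximal fragment -/
lemma exists_frag (F : Set (Finset X)) (lam : Finset X → X → ℝ) (H : Finset X) (hH : H ∈ F)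
    (d : X → ℕ) :
    ∃ d' : X → ℕ, (∀ x, d' x ≤ d x) ∧ low d d' ⊆ H ∧ Adm F lam d' (low d d') := by
  classical
  let C : Finset (X → ℕ) := (Fintype.piFinset (fun x => range (d x + 1))).filter
    (fun d' => low d d' ⊆ H ∧ ∃ H' ∈ F, Feas lam d' (tau (low d d') d') H')
  have hC : C.Nonempty := by
    refine ⟨fun x => if x ∈ H then 0 else d x, ?_⟩
    simp only [C, mem_filter, Fintype.mem_piFinset, mem_range]
    refine ⟨fun x => by split_ifs <;> omega, ?_, H, hH, ?_⟩
    · intro x hx
      rw [mem_low] at hx
      by_contra h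
      simp [h] at hx
    · intro j y _
      left
      intro z hz
      simp [(mem_pre.1 hz).1]
  obtain ⟨d', hd'C, hmax⟩ := exists_max_image C (fun d' => ∑ x, d' x) hC
  simp only [C, mem_filter, Fintype.mem_piFinset, mem_range] at hd'C
  obtain ⟨hle, hsub, hex⟩ := hd'C
  refine ⟨d', fun x => by have := hle x; omega, hsub, hex, ?_⟩
  intro H' hH' hF x hx
  by_contra hcon
  have hbad : x ∈ H' → (tau (low d d') d' (d' x) : ℝ) ≤ eps (d' x) * (pre lam H' x).card := by
    intro hxH
    by_contra h
    exact hcon ⟨hxH, not_le.1 h⟩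
  have hfe := raise_feas lam d d' H' x hx hF hbad
  have hmem : Function.update d' x (d' x + 1) ∈ C := by
    simp only [C, mem_filter, Fintype.mem_piFinset, mem_range]
    refine ⟨fun z => ?_, ?_, H', hH', hfe⟩
    · by_cases hzx : z = x
      · subst hzx; rw [mem_low] at hx; simp; omega
      · rw [Function.update_of_ne hzx]; exact hle z
    · intro z hz
      apply hsub
      rw [mem_low] at hz ⊢
      by_cases hzx : z = x
      · subst hzx; simp at hz; omega
      · rwa [Function.update_of_ne hzx] at hz
  have h1 := hmax _ hmem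
  have h2 : ∑ z, d' z < ∑ z, Function.update d' x (d' x + 1) z := by
    apply sum_lt_sum
    · intro z _
      by_cases hzx : z = x
      · subst hzx; simp
      · rw [Function.update_of_ne hzx]
    · exact ⟨x, mem_univ _, by simp⟩
  omega

omit [Fintype X] [DecidableEq X] in
/-- layer-cake -/
lemma layer_cake (f : X → ℝ) (n : ℕ) : ∀ (H : Finset X) (l : X → ℝ), H.card ≤ n → (∀ y ∈ H, 0 ≤ l y) →
    (∀ x ∈ H, 0 ≤ ∑ y ∈ H.filter (fun y => l x ≤ l y), f y) → 0 ≤ ∑ y ∈ H, l y * f y := by
  classical
  induction n with
  | zero =>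
    intro H l hc _ _
    have : H = ∅ := card_eq_zero.1 (by omega)
    simp [this]
  | succ n ih =>
    intro H l hc hl hpre
    rcases H.eq_empty_or_nonempty with rfl | hne
    · simp
    obtain ⟨x0, hx0, hmin⟩ := exists_min_image H l hne
    have h0 : 0 ≤ ∑ y ∈ H, f y := by
      have := hpre x0 hx0
      rwa [filter_true_of_mem hmin] at this
    have hsplit : ∑ y ∈ H, l y * f y =
        l x0 * ∑ y ∈ H, f y + ∑ y ∈ H.filter (fun y => l x0 < l y), (l y - l x0) * f y := by
      rw [sum_filter, mul_sum, ← sum_add_distrib]
      apply sum_congr rfl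
      intro y hy
      split_ifs with h
      · ring
      · have : l y = l x0 := le_antisymm (not_lt.1 h) (hmin y hy)
        rw [this]; ring
    rw [hsplit]
    have hcard : (H.filter (fun y => l x0 < l y)).card ≤ n := by
      have : (H.filter (fun y => l x0 < l y)).card < H.card := by
        apply card_lt_card
        refine ⟨filter_subset _ _, fun h => ?_⟩
        have := h hx0
        simp at this
      omega
    have := ih (H.filter (fun y => l x0 < l y)) (fun y => l y - l x0) hcard
      (by intro y hy; simp only [mem_filter] at hy; linarith [hy.2])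
      (by
        intro x hx
        simp only [mem_filter] at hx
        have e : (H.filter (fun y => l x0 < l y)).filter (fun y => l x - l x0 ≤ l y - l x0) =
            H.filter (fun y => l x ≤ l y) := by
          ext y
          simp only [mem_filter]
          constructor
          · rintro ⟨⟨h1, _⟩, h3⟩; exact ⟨h1, by linarith⟩
          · rintro ⟨h1, h3⟩; exact ⟨⟨h1, by linarith [hx.2]⟩, by linarith⟩
        rw [e]; exact hpre x hx.1)
    have h2 := mul_nonneg (hl x0 hx0) h0
    linarith

lemma sum_eps_le (s : ℕ) : ∑ j ∈ range s, eps j ≤ 1 / 2 := by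
  have : ∀ s, ∑ j ∈ range s, eps j = 1 / 2 - (1 / 2) * (1 / 2 : ℝ) ^ s := by
    intro s
    induction s with
    | zero => simp
    | succ s ih => rw [sum_range_succ, ih]; unfold eps; ring
  rw [this]
  have : (0 : ℝ) ≤ (1 / 2) * (1 / 2 : ℝ) ^ s := by positivity
  linarith

omit [Fintype X] in
/-- a feasible set with zero slack has average level at most `1/2` -/
lemma feas_zero_avg (lam : Finset X → X → ℝ) (d : X → ℕ) (s : ℕ) (hd : ∀ x, d x ≤ s)
    (H : Finset X) (hl : ∀ y ∈ H, 0 ≤ lam H y) (hF : Feas lam d (tau ∅ d) H) :
    0 ≤ ∑ y ∈ H, lam H y * (1 / 2 - (d y : ℝ)) := by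
  classical
  apply layer_cake _ H.card H _ le_rfl hl
  intro x hx
  have e : H.filter (fun y => lam H x ≤ lam H y) = pre lam H x := by
    ext y; rw [mem_pre, mem_filter]
  rw [e]
  have h1 : ∀ j, (((pre lam H x).filter (fun y => j < d y)).card : ℝ) ≤ eps j * (pre lam H x).card := by
    intro j
    rcases hF j x hx with h | h
    · have h0 : ((pre lam H x).filter (fun z => j < d z)).card = 0 := by
        rw [card_eq_zero, filter_eq_empty_iff]
        intro z hz; exact not_lt.2 (h z hz)
      rw [h0, Nat.cast_zero]
      have := eps_pos j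
      positivity
    · simpa [tau] using h
  have h2 : ∑ y ∈ pre lam H x, (d y : ℝ) =
      ∑ j ∈ range s, (((pre lam H x).filter (fun y => j < d y)).card : ℝ) := by
    simp only [card_filter]
    push_cast
    rw [sum_comm]
    apply sum_congr rfl
    intro y _
    rw [← sum_filter]
    have : (range s).filter (fun j => j < d y) = range (d y) := by
      ext j; simp only [mem_filter, mem_range]; have := hd y; omega
    simp [this]
  rw [sum_sub_distrib, h2]
  have h3 : ∑ j ∈ range s, (((pre lam H x).filter (fun y => j < d y)).card : ℝ) ≤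
      ∑ j ∈ range s, eps j * (pre lam H x).card := sum_le_sum fun j _ => h1 j
  rw [← sum_mul] at h3
  have h4 := sum_eps_le s
  have h5 : (0 : ℝ) ≤ (pre lam H x).card := Nat.cast_nonneg _
  simp only [sum_const, nsmul_eq_mul]
  nlinarith

end Vale.Agent.P034
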