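import Vale.Agent.P034.Cost
import Vale.Agent.P034.Defs

namespace Vale.Agent.P034

open Finset

variable {X : Type} [Fintype X] [DecidableEq X]

/-- all level functions -/
def lev (X : Type) [Fintype X] [DecidableEq X] (s : ℕ) : Finset (X → ℕ) :=
  Fintype.piFinset (fun _ : X => range (s + 1))

lemma mem_lev {s : ℕ} {d : X → ℕ} : d ∈ lev X s ↔ ∀ x, d x ≤ s := by
  unfold lev
  simp only [Fintype.mem_piFinset, mem_range]
  exact forall_congr' fun x => by omega

/-- the nonempty fragments arising from `d` -/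
noncomputable def cov (F : Set (Finset X)) (lam : Finset X → X → ℝ) (s : ℕ) (d : X → ℕ) :
    Finset (Finset X) := by
  classical exact univ.filter (fun U => ∃ d' ∈ lev X s, (∀ x, x ∉ U → d x = d' x) ∧
    U ∈ admSet F lam s d')

lemma mem_cov {F : Set (Finset X)} {lam : Finset X → X → ℝ} {s : ℕ} {d : X → ℕ} {U : Finset X} :
    U ∈ cov F lam s d ↔ ∃ d' ∈ lev X s, (∀ x, x ∉ U → d x = d' x) ∧ U ∈ admSet F lam s d' := by
  classical
  unfold cov; simp

lemma agree_sum (s : ℕ) (π : ℕ → ℝ) (hπ0 : ∀ j, 0 ≤ π j) (hπ1 : ∑ j ∈ range (s + 1), π j = 1)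
    (U : Finset X) (d' : X → ℕ) :
    ∑ d ∈ (lev X s).filter (fun d => ∀ x, x ∉ U → d x = d' x), ∏ x, π (d x) ≤
      ∏ x ∈ Uᶜ, π (d' x) := by
  classical
  have hsub : (lev X s).filter (fun d => ∀ x, x ∉ U → d x = d' x) ⊆
      Fintype.piFinset (fun x => if x ∈ U then range (s + 1) else {d' x}) := by
    intro d hd
    rw [mem_filter, mem_lev] at hd
    rw [Fintype.mem_piFinset]
    intro x
    split_ifs with h
    · have := hd.1 x; rw [mem_range]; omega
    · simp [hd.2 x h]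
  refine (sum_le_sum_of_subset_of_nonneg hsub
    (fun d _ _ => prod_nonneg fun x _ => hπ0 _)).trans ?_
  rw [← prod_univ_sum (f := fun _ j => π j)]
  apply le_of_eq
  rw [← prod_mul_prod_compl U]
  have e1 : ∏ x ∈ U, ∑ j ∈ (if x ∈ U then range (s + 1) else {d' x}), π j = 1 := by
    apply prod_eq_one
    intro x hx
    rw [if_pos hx, hπ1]
  rw [e1, one_mul]
  apply prod_congr rfl
  intro x hx
  rw [if_neg (mem_compl.1 hx), sum_singleton]

lemma total_mass (s : ℕ) (π : ℕ → ℝ) (hπ1 : ∑ j ∈ range (s + 1), π j = 1) :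
    ∑ d ∈ lev X s, ∏ x, π (d x) = 1 := by
  unfold lev
  rw [← prod_univ_sum (f := fun _ j => π j)]
  simp [hπ1]

lemma exp_cost (F : Set (Finset X)) (lam : Finset X → X → ℝ) (s : ℕ) (π : ℕ → ℝ) (p : ℝ)
    (hp : 0 ≤ p) (hπ0 : ∀ j, 0 ≤ π j) (hπ1 : ∑ j ∈ range (s + 1), π j = 1)
    (hπ2 : ∀ j < s, π j = 512 * 8 ^ j * p) :
    ∑ d ∈ lev X s, (∏ x, π (d x)) * ∑ U ∈ cov F lam s d, p ^ U.card ≤ 1 / 3 := by
  classical
  have hμ : ∀ d : X → ℕ, 0 ≤ ∏ x, π (d x) := fun d => prod_nonneg fun x _ => hπ0 _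
  have step1 : ∀ d ∈ lev X s, (∏ x, π (d x)) * ∑ U ∈ cov F lam s d, p ^ U.card ≤
      ∑ d' ∈ lev X s, ∑ U ∈ admSet F lam s d',
        if (∀ x, x ∉ U → d x = d' x) then (∏ x, π (d x)) * p ^ U.card else 0 := by
    intro d _
    have e : ∑ d' ∈ lev X s, ∑ U ∈ admSet F lam s d',
        (if (∀ x, x ∉ U → d x = d' x) then (∏ x, π (d x)) * p ^ U.card else 0) =
        ∑ U : Finset X, ∑ d' ∈ lev X s, if U ∈ admSet F lam s d' then
          (if (∀ x, x ∉ U → d x = d' x) then (∏ x, π (d x)) * p ^ U.card else 0) else 0 := by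
      rw [sum_comm]
      apply sum_congr rfl
      intro d' _
      rw [sum_ite_mem, univ_inter]
    rw [e, mul_sum]
    have hnn : ∀ U : Finset X, ∀ d' : X → ℕ, 0 ≤ (if U ∈ admSet F lam s d' then
          (if (∀ x, x ∉ U → d x = d' x) then (∏ x, π (d x)) * p ^ U.card else 0) else 0) := by
      intro U d'
      have := mul_nonneg (hμ d) (pow_nonneg hp U.card)
      split_ifs <;> first | exact this | exact le_rfl
    refine le_trans ?_ (sum_le_sum_of_subset_of_nonneg (subset_univ (cov F lam s d))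
      (fun U _ _ => sum_nonneg fun d' _ => hnn U d'))
    apply sum_le_sum
    intro U hU
    obtain ⟨d', hd', hag, hadm⟩ := mem_cov.1 hU
    refine le_trans ?_ (single_le_sum (fun d' _ => hnn U d') hd')
    rw [if_pos hadm, if_pos hag]
  refine (sum_le_sum step1).trans ?_
  rw [sum_comm]
  have step2 : ∀ d' ∈ lev X s, ∑ d ∈ lev X s, ∑ U ∈ admSet F lam s d',
        (if (∀ x, x ∉ U → d x = d' x) then (∏ x, π (d x)) * p ^ U.card else 0) ≤
        (∏ x, π (d' x)) * (1 / 3) := by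
    intro d' _
    rw [sum_comm]
    refine le_trans ?_ (mul_le_mul_of_nonneg_left (adm_cost F lam s d') (hμ d'))
    rw [mul_sum]
    apply sum_le_sum
    intro U hU
    rw [← sum_filter, ← sum_mul]
    refine (mul_le_mul_of_nonneg_right (agree_sum s π hπ0 hπ1 U d') (pow_nonneg hp _)).trans ?_
    apply le_of_eq
    rw [← prod_mul_prod_compl U (fun x => π (d' x)), mul_comm (∏ x ∈ U, π (d' x)), mul_assoc,
      ← prod_mul_distrib, ← prod_const]
    congr 1
    apply prod_congr rfl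
    intro x hx
    rw [hπ2 _ ((mem_admSet.1 hU).2.1 x hx)]
    field_simp
  refine (sum_le_sum step2).trans ?_
  rw [← sum_mul, total_mass s π hπ1]
  norm_num

noncomputable def phi (j : ℕ) : ℝ := 16 * (1 / 16) ^ j

noncomputable def lamOf (g : Finset X → ℝ) (H : Finset X) (x : X) : ℝ :=
  ∑ S ∈ H.powerset, if x ∈ S then g S / S.card else 0

noncomputable def GG (g : Finset X → ℝ) (d : X → ℕ) : ℝ :=
  ∑ S ∈ univ.filter (fun S : Finset X => S.Nonempty), g S * ∏ x ∈ S, phi (d x)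

omit [Fintype X] [DecidableEq X] in
lemma phi_prod_ge (d : X → ℕ) (S : Finset X) (hS : S.Nonempty) :
    1 / 2 + (∑ y ∈ S, (1 / 2 - (d y : ℝ))) / S.card ≤ ∏ x ∈ S, phi (d x) := by
  have hc : (0 : ℝ) < S.card := by exact_mod_cast hS.card_pos
  have e1 : ∏ x ∈ S, phi (d x) = 16 ^ S.card * (1 / 16) ^ (∑ x ∈ S, d x) := by
    unfold phi
    rw [prod_mul_distrib, prod_const, prod_pow_eq_pow_sum]
  have e2 : 1 / 2 + (∑ y ∈ S, (1 / 2 - (d y : ℝ))) / S.card =
      1 - ((∑ x ∈ S, d x : ℕ) : ℝ) / S.card := by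
    rw [sum_sub_distrib]
    simp only [sum_const, nsmul_eq_mul]
    push_cast
    field_simp
    ring
  rw [e1, e2]
  set D := ∑ x ∈ S, d x
  have hD : (0 : ℝ) ≤ (D : ℝ) / S.card := by positivity
  by_cases h : D ≤ S.card
  · have : (1 : ℝ) ≤ 16 ^ S.card * (1 / 16) ^ D := by
      obtain ⟨k, hk⟩ := Nat.exists_eq_add_of_le h
      rw [hk, pow_add, mul_comm (16 ^ D : ℝ), mul_assoc, ← mul_pow]
      norm_num
      exact one_le_pow₀ (by norm_num)
    linarith
  · have h1 : (1 : ℝ) ≤ (D : ℝ) / S.card := by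
      rw [le_div_iff₀ hc, one_mul]
      exact_mod_cast (not_le.1 h).le
    have : (0 : ℝ) ≤ 16 ^ S.card * (1 / 16) ^ D := by positivity
    linarith

lemma phi_nonneg (j : ℕ) : 0 ≤ phi j := by unfold phi; positivity

lemma good_GG (g : Finset X → ℝ) (hg : ∀ S, 0 ≤ g S) (hg0 : g ∅ ≤ 1 / 2) (s : ℕ) (d : X → ℕ)
    (hd : ∀ x, d x ≤ s) (H : Finset X) (hH : 1 ≤ ∑ S ∈ H.powerset, g S)
    (hF : Feas (lamOf g) d (tau ∅ d) H) : 1 / 4 ≤ GG g d := by
  have hl : ∀ y ∈ H, 0 ≤ lamOf g H y := by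
    intro y _
    apply sum_nonneg
    intro S _
    have := hg S
    split_ifs
    · positivity
    · exact le_rfl
  have h1 := feas_zero_avg (lamOf g) d s hd H hl hF
  have e1 : ∑ y ∈ H, lamOf g H y * (1 / 2 - (d y : ℝ)) =
      ∑ S ∈ H.powerset, g S * ((∑ y ∈ S, (1 / 2 - (d y : ℝ))) / S.card) := by
    unfold lamOf
    simp only [sum_mul]
    rw [sum_comm]
    apply sum_congr rfl
    intro S hS
    rw [mem_powerset] at hS
    simp only [ite_mul, zero_mul]
    rw [← sum_filter]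
    have : H.filter (fun y => y ∈ S) = S := by
      ext y; simp only [mem_filter]; exact ⟨fun h => h.2, fun h => ⟨hS h, h⟩⟩
    rw [this, ← mul_sum]
    ring
  rw [e1] at h1
  have hmem : (∅ : Finset X) ∈ H.powerset := empty_mem_powerset H
  rw [← add_sum_erase _ _ hmem] at h1 hH
  simp only [sum_empty, zero_div, mul_zero, zero_add] at h1
  have hsub : H.powerset.erase ∅ ⊆ univ.filter (fun S : Finset X => S.Nonempty) := by
    intro S hS
    simp only [mem_filter, mem_univ, true_and]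
    exact nonempty_iff_ne_empty.2 (mem_erase.1 hS).1
  have h2 : ∑ S ∈ H.powerset.erase ∅, g S * ∏ x ∈ S, phi (d x) ≤ GG g d :=
    sum_le_sum_of_subset_of_nonneg hsub
      (fun S _ _ => mul_nonneg (hg S) (prod_nonneg fun x _ => phi_nonneg _))
  have h3 : ∑ S ∈ H.powerset.erase ∅,
      (g S * (1 / 2) + g S * ((∑ y ∈ S, (1 / 2 - (d y : ℝ))) / S.card)) ≤
      ∑ S ∈ H.powerset.erase ∅, g S * ∏ x ∈ S, phi (d x) := by
    apply sum_le_sum
    intro S hS
    rw [← mul_add]
    exact mul_le_mul_of_nonneg_left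
      (phi_prod_ge d S (nonempty_iff_ne_empty.2 (mem_erase.1 hS).1)) (hg S)
  rw [sum_add_distrib, ← sum_mul] at h3
  linarith

lemma exp_GG (g : Finset X → ℝ) (hg : ∀ S, 0 ≤ g S) (s : ℕ) (π : ℕ → ℝ) (p : ℝ)
    (hp : 0 ≤ p) (hπ0 : ∀ j, 0 ≤ π j) (hπ1 : ∑ j ∈ range (s + 1), π j = 1)
    (hρ : ∑ j ∈ range (s + 1), π j * phi j ≤ p / 8)
    (hw : ∑ S : Finset X, g S * p ^ S.card ≤ 1 / 2) :
    ∑ d ∈ lev X s, (∏ x, π (d x)) * GG g d ≤ 1 / 16 := by
  unfold GG
  simp only [mul_sum]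
  rw [sum_comm]
  have h1 : ∀ S ∈ univ.filter (fun S : Finset X => S.Nonempty),
      ∑ d ∈ lev X s, (∏ x, π (d x)) * (g S * ∏ x ∈ S, phi (d x)) ≤ (1 / 8) * (g S * p ^ S.card) := by
    intro S hS
    have hSne : S.Nonempty := (mem_filter.1 hS).2
    have e1 : ∀ d : X → ℕ, (∏ x, π (d x)) * (g S * ∏ x ∈ S, phi (d x)) =
        g S * ∏ x, (π (d x) * if x ∈ S then phi (d x) else 1) := by
      intro d
      rw [prod_mul_distrib, prod_ite_mem]
      simp only [univ_inter]
      ring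
    simp only [e1]
    rw [← mul_sum]
    unfold lev
    rw [← prod_univ_sum (f := fun x j => π j * if x ∈ S then phi j else 1)]
    have e2 : ∏ x, ∑ j ∈ range (s + 1), (π j * if x ∈ S then phi j else 1) =
        (∑ j ∈ range (s + 1), π j * phi j) ^ S.card := by
      rw [← prod_const, ← prod_mul_prod_compl S]
      have : ∏ x ∈ Sᶜ, ∑ j ∈ range (s + 1), (π j * if x ∈ S then phi j else 1) = 1 := by
        apply prod_eq_one
        intro x hx
        simp only [if_neg (mem_compl.1 hx), mul_one, hπ1]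
      rw [this, mul_one]
      apply prod_congr rfl
      intro x hx
      simp only [if_pos hx]
    rw [e2]
    have hρ0 : 0 ≤ ∑ j ∈ range (s + 1), π j * phi j :=
      sum_nonneg fun j _ => mul_nonneg (hπ0 j) (phi_nonneg j)
    have h2 : (∑ j ∈ range (s + 1), π j * phi j) ^ S.card ≤ (1 / 8) * p ^ S.card := by
      refine (pow_le_pow_left₀ hρ0 hρ _).trans ?_
      rw [div_eq_mul_one_div, mul_pow, mul_comm]
      apply mul_le_mul_of_nonneg_right _ (pow_nonneg hp _)
      obtain ⟨k, hk⟩ := Nat.exists_eq_add_of_le (Nat.succ_le_of_lt hSne.card_pos)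
      rw [hk, pow_add]
      have : (1 / 8 : ℝ) ^ k ≤ 1 := pow_le_one₀ (by norm_num) (by norm_num)
      norm_num at this ⊢
      exact this
    have := mul_le_mul_of_nonneg_left h2 (hg S)
    linarith
  refine (sum_le_sum h1).trans ?_
  rw [← mul_sum]
  have h3 : ∑ S ∈ univ.filter (fun S : Finset X => S.Nonempty), g S * p ^ S.card ≤
      ∑ S : Finset X, g S * p ^ S.card :=
    sum_le_sum_of_subset_of_nonneg (filter_subset _ _)
      (fun S _ _ => mul_nonneg (hg S) (pow_nonneg hp _))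
  linarith

lemma exists_levels (a : ℝ) (ha : 0 < a) : ∃ (s : ℕ) (π : ℕ → ℝ), (∀ j, 0 ≤ π j) ∧
    ∑ j ∈ range (s + 1), π j = 1 ∧ (∀ j < s, π j = 8 ^ j * a) ∧
    ∑ j ∈ range (s + 1), π j * phi j ≤ 64 * a := by
  classical
  have hex : ∃ s : ℕ, 1 / 2 < 8 ^ s * a := by
    obtain ⟨s, hs⟩ := pow_unbounded_of_one_lt (1 / 2 / a) (by norm_num : (1 : ℝ) < 8)
    exact ⟨s, by rwa [div_lt_iff₀ ha] at hs⟩
  set s := Nat.find hex with hs
  have hs1 : 1 / 2 < 8 ^ s * a := Nat.find_spec hex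
  have hsum : ∀ n, ∑ j ∈ range n, 8 ^ j * a = (8 ^ n * a - a) / 7 := by
    intro n
    induction n with
    | zero => simp
    | succ n ih => rw [sum_range_succ, ih]; ring
  have hle : ∑ j ∈ range s, 8 ^ j * a ≤ 1 := by
    rw [hsum]
    rcases Nat.eq_zero_or_pos s with h | h
    · rw [h]; simp
    · have := Nat.find_min hex (show s - 1 < Nat.find hex by omega)
      have e : (8 : ℝ) ^ s = 8 ^ (s - 1) * 8 := by rw [← pow_succ]; congr 1; omega
      rw [e]
      nlinarith
  have hnn : 0 ≤ ∑ j ∈ range s, 8 ^ j * a := sum_nonneg fun j _ => by positivity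
  refine ⟨s, fun j => if j < s then 8 ^ j * a else 1 - ∑ j ∈ range s, 8 ^ j * a, ?_, ?_, ?_, ?_⟩
  · intro j
    simp only
    split_ifs
    · positivity
    · linarith
  · rw [sum_range_succ]
    simp only [lt_irrefl, if_false]
    rw [sum_congr rfl (g := fun j => 8 ^ j * a) (fun j hj => by rw [if_pos (mem_range.1 hj)])]
    ring
  · intro j hj; simp only [if_pos hj]
  · have h1 : ∀ j ∈ range (s + 1), (if j < s then 8 ^ j * a else 1 - ∑ j ∈ range s, 8 ^ j * a) *
        phi j ≤ 32 * a * (1 / 2) ^ j := by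
      intro j hj
      have h2 : (if j < s then 8 ^ j * a else 1 - ∑ j ∈ range s, 8 ^ j * a) ≤ 2 * (8 ^ j * a) := by
        split_ifs with h
        · have : 0 ≤ 8 ^ j * a := by positivity
          linarith
        · have : j = s := by rw [mem_range] at hj; omega
          rw [this]; linarith
      refine (mul_le_mul_of_nonneg_right h2 (phi_nonneg j)).trans (le_of_eq ?_)
      unfold phi
      have : (1 / 2 : ℝ) ^ j = 8 ^ j * (1 / 16) ^ j := by rw [← mul_pow]; norm_num
      rw [this]; ring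
    refine (sum_le_sum h1).trans ?_
    rw [← mul_sum]
    have := sum_half_le (s + 1)
    nlinarith

theorem small_of_fracSmall (F : Set (Finset X)) (p : ℝ) (hp : 0 ≤ p) (h : IsFracSmall F p) :
    IsSmall F (p / 2 ^ 18) := by
  classical
  obtain ⟨g, hg, hcov, hw⟩ := h
  have hg' : ∀ S, 0 ≤ g S := fun S => (hg S).1
  have hg0 : g ∅ ≤ 1 / 2 := by
    have := single_le_sum (f := fun S : Finset X => g S * p ^ S.card)
      (fun S _ => mul_nonneg (hg' S) (pow_nonneg hp _)) (mem_univ ∅)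
    simp only [card_empty, pow_zero, mul_one] at this
    linarith
  rcases hp.eq_or_lt with rfl | hp'
  · refine ⟨univ.filter (fun S => S.Nonempty), ?_, ?_⟩
    · intro H hH
      refine ⟨H, ?_, Subset.rfl⟩
      simp only [mem_filter, mem_univ, true_and]
      rw [nonempty_iff_ne_empty]
      rintro rfl
      have := hcov _ hH
      simp at this
      linarith
    · rw [sum_eq_zero]
      · norm_num
      · intro S hS
        have := (mem_filter.1 hS).2.card_pos
        rw [zero_div, zero_pow (by omega)]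
  set p' := p / 2 ^ 18 with hp'def
  have hp'0 : 0 < p' := by positivity
  obtain ⟨s, π, hπ0, hπ1, hπ2, hρ⟩ := exists_levels (512 * p') (by positivity)
  have hE1 := exp_cost F (lamOf g) s π p' hp'0.le hπ0 hπ1 (fun j hj => by rw [hπ2 j hj]; ring)
  have hE2 := exp_GG g hg' s π p hp hπ0 hπ1 (by rw [hp'def] at hρ; linarith) hw
  have hex : ∃ d ∈ lev X s, 2 * GG g d + ∑ U ∈ cov F (lamOf g) s d, p' ^ U.card < 1 / 2 := by
    by_contra hcon
    push Not at hcon
    have h1 : ∑ d ∈ lev X s, (∏ x, π (d x)) * (1 / 2) ≤ ∑ d ∈ lev X s, (∏ x, π (d x)) *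
        (2 * GG g d + ∑ U ∈ cov F (lamOf g) s d, p' ^ U.card) :=
      sum_le_sum fun d hd => mul_le_mul_of_nonneg_left (hcon d hd)
        (prod_nonneg fun x _ => hπ0 _)
    rw [← sum_mul, total_mass s π hπ1] at h1
    have e : ∑ d ∈ lev X s, (∏ x, π (d x)) *
        (2 * GG g d + ∑ U ∈ cov F (lamOf g) s d, p' ^ U.card) =
        2 * ∑ d ∈ lev X s, (∏ x, π (d x)) * GG g d +
        ∑ d ∈ lev X s, (∏ x, π (d x)) * ∑ U ∈ cov F (lamOf g) s d, p' ^ U.card := by
      rw [mul_sum, ← sum_add_distrib]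
      apply sum_congr rfl
      intro d _; ring
    rw [e] at h1
    linarith
  obtain ⟨d, hd, hlt⟩ := hex
  have hGG0 : 0 ≤ GG g d :=
    sum_nonneg fun S _ => mul_nonneg (hg' S) (prod_nonneg fun x _ => phi_nonneg _)
  have hc0 : 0 ≤ ∑ U ∈ cov F (lamOf g) s d, p' ^ U.card :=
    sum_nonneg fun U _ => pow_nonneg hp'0.le _
  refine ⟨cov F (lamOf g) s d, ?_, by linarith⟩
  intro H hH
  obtain ⟨d', hle, hsub, hadm⟩ := exists_frag F (lamOf g) H hH d
  rw [mem_lev] at hd
  have hag : ∀ x, x ∉ low d d' → d x = d' x := by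
    intro x hx
    rw [mem_low] at hx
    have := hle x
    omega
  refine ⟨low d d', ?_, hsub⟩
  rw [mem_cov]
  refine ⟨d', mem_lev.2 fun x => (hle x).trans (hd x), hag, ?_⟩
  rw [mem_admSet]
  refine ⟨?_, fun x hx => lt_of_lt_of_le (mem_low.1 hx) (hd x), hadm⟩
  rw [nonempty_iff_ne_empty]
  intro hempty
  have hdd : d' = d := by
    funext x
    exact (hag x (by rw [hempty]; simp)).symm
  obtain ⟨⟨H', hH', hF⟩, _⟩ := hadm
  rw [hempty, hdd] at hF
  have := good_GG g hg' hg0 s d hd H' (hcov H' hH') hF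
  linarith

omit [DecidableEq X] in
theorem threshold_le (F : Set (Finset X)) : fracExpThreshold F ≤ 2 ^ 18 * expThreshold F := by
  classical
  have hq0 : 0 ≤ expThreshold F := Real.sSup_nonneg fun p hp => hp.1.1
  apply Real.sSup_le _ (by positivity)
  rintro p ⟨⟨hp0, hp1⟩, hp⟩
  have h := small_of_fracSmall F p hp0 hp
  have hle : p / 2 ^ 18 ≤ expThreshold F := by
    apply le_csSup ⟨1, fun r hr => hr.1.2⟩
    refine ⟨⟨by positivity, ?_⟩, h⟩
    rw [div_le_one (by positivity)]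
    linarith
  rw [div_le_iff₀ (by positivity)] at hle
  linarith

end Vale.Agent.P034
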